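import Vale.Agent.Lib.P227.Defs

namespace Vale.Agent.Lib.P227

open MeasureTheory Pointwise


section Basic

variable {E : Type*} [NormedAddCommGroup E] [InnerProductSpace ℝ E]

lemma bddAbove_inner_image {K : Set E} (hK : IsCompact K) (u : E) :
    BddAbove ((fun x : E => inner ℝ x u) '' K) := by
  have hc : Continuous (fun x : E => inner ℝ x u) := by fun_prop
  exact (hK.image hc).bddAbove

lemma inner_le_supportFn {K : Set E} (hK : IsCompact K) {x : E} (hx : x ∈ K) (u : E) :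
    inner ℝ x u ≤ supportFn K u :=
  le_csSup (bddAbove_inner_image hK u) ⟨x, hx, rfl⟩

lemma IsSymmConvexBody.nonempty {K : Set E} (hK : IsSymmConvexBody K) : K.Nonempty :=
  hK.2.2.1.mono interior_subset

lemma supportFn_nonneg {K : Set E} (hK : IsSymmConvexBody K) (u : E) :
    0 ≤ supportFn K u := by
  obtain ⟨x, hx⟩ := hK.nonempty
  have h1 := inner_le_supportFn hK.1 hx u
  have h2 := inner_le_supportFn hK.1 (hK.2.2.2 x hx) u
  rw [inner_neg_left] at h2
  linarith

lemma supportFn_smul_vec {K : Set E} (c : ℝ) (hc : 0 ≤ c) (u : E) :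
    supportFn K (c • u) = c * supportFn K u := by
  unfold supportFn
  have : (fun x : E => inner ℝ x (c • u)) '' K = c • ((fun x : E => inner ℝ x u) '' K) := by
    ext y
    simp only [Set.mem_image, Set.mem_smul_set, smul_eq_mul]
    constructor
    · rintro ⟨x, hx, rfl⟩
      exact ⟨inner ℝ x u, ⟨x, hx, rfl⟩, by rw [inner_smul_right]⟩
    · rintro ⟨z, ⟨x, hx, rfl⟩, rfl⟩
      exact ⟨x, hx, by rw [inner_smul_right]⟩
  rw [this, Real.sSup_smul_of_nonneg hc, smul_eq_mul]

lemma supportFn_smul_set {K : Set E} (c : ℝ) (hc : 0 ≤ c) (u : E) :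
    supportFn (c • K) u = c * supportFn K u := by
  unfold supportFn
  have : (fun x : E => inner ℝ x u) '' (c • K) = c • ((fun x : E => inner ℝ x u) '' K) := by
    ext y
    simp only [Set.mem_image, Set.mem_smul_set, smul_eq_mul]
    constructor
    · rintro ⟨x, ⟨z, hz, rfl⟩, rfl⟩
      exact ⟨inner ℝ z u, ⟨z, hz, rfl⟩, by rw [inner_smul_left]; simp⟩
    · rintro ⟨z, ⟨x, hx, rfl⟩, rfl⟩
      exact ⟨c • x, ⟨x, hx, rfl⟩, by rw [inner_smul_left]; simp⟩
  rw [this, Real.sSup_smul_of_nonneg hc, smul_eq_mul]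

/-- Two-term Hoelder inequality in geometric-mean form. -/
lemma holder_two {p q r s t : ℝ} (hp : 0 ≤ p) (hq : 0 ≤ q) (hr : 0 ≤ r) (hs : 0 ≤ s)
    (ht0 : 0 ≤ t) (ht1 : t ≤ 1) :
    p ^ (1 - t) * q ^ t + r ^ (1 - t) * s ^ t ≤ (p + r) ^ (1 - t) * (q + s) ^ t := by
  rcases eq_or_lt_of_le ht0 with h0 | h0
  · subst h0
    simp
  rcases eq_or_lt_of_le ht1 with h1 | h1
  · subst h1
    simp
  have h1t : 0 < 1 - t := by linarith
  rcases eq_or_lt_of_le (add_nonneg hp hr) with hP | hP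
  · have hp0 : p = 0 := by linarith
    have hr0 : r = 0 := by linarith
    subst hp0 hr0
    simp [Real.zero_rpow h1t.ne']
  rcases eq_or_lt_of_le (add_nonneg hq hs) with hQ | hQ
  · have hq0 : q = 0 := by linarith
    have hs0 : s = 0 := by linarith
    subst hq0 hs0
    simp [Real.zero_rpow h0.ne']
  set P := p + r with hPdef
  set Q := q + s with hQdef
  have e1 : (p / P) ^ (1 - t) * (q / Q) ^ t ≤ (1 - t) * (p / P) + t * (q / Q) :=
    Real.geom_mean_le_arith_mean2_weighted h1t.le ht0 (div_nonneg hp hP.le)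
      (div_nonneg hq hQ.le) (by ring)
  have e2 : (r / P) ^ (1 - t) * (s / Q) ^ t ≤ (1 - t) * (r / P) + t * (s / Q) :=
    Real.geom_mean_le_arith_mean2_weighted h1t.le ht0 (div_nonneg hr hP.le)
      (div_nonneg hs hQ.le) (by ring)
  have hPQ : 0 < P ^ (1 - t) * Q ^ t :=
    mul_pos (Real.rpow_pos_of_pos hP _) (Real.rpow_pos_of_pos hQ _)
  have k1 : p ^ (1 - t) * q ^ t = (P ^ (1 - t) * Q ^ t) * ((p / P) ^ (1 - t) * (q / Q) ^ t) := by
    rw [Real.div_rpow hp hP.le, Real.div_rpow hq hQ.le]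
    field_simp
  have k2 : r ^ (1 - t) * s ^ t = (P ^ (1 - t) * Q ^ t) * ((r / P) ^ (1 - t) * (s / Q) ^ t) := by
    rw [Real.div_rpow hr hP.le, Real.div_rpow hs hQ.le]
    field_simp
  have hsum : (1 - t) * (p / P) + t * (q / Q) + ((1 - t) * (r / P) + t * (s / Q)) = 1 := by
    have : p / P + r / P = 1 := by rw [← add_div]; exact div_self hP.ne'
    have : q / Q + s / Q = 1 := by rw [← add_div]; exact div_self hQ.ne'
    nlinarith
  rw [k1, k2, ← mul_add]
  calc (P ^ (1 - t) * Q ^ t) * ((p / P) ^ (1 - t) * (q / Q) ^ t + (r / P) ^ (1 - t) * (s / Q) ^ t)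
      ≤ (P ^ (1 - t) * Q ^ t) * 1 := by
        apply mul_le_mul_of_nonneg_left _ hPQ.le
        linarith
    _ = P ^ (1 - t) * Q ^ t := by ring

/-- Points of the logarithmic combination satisfy the defining inequality for all `u`. -/
lemma inner_le_of_mem_logSum {K L : Set E} (hK : IsSymmConvexBody K) (hL : IsSymmConvexBody L)
    {t : ℝ} {x : E} (hx : x ∈ logSum K L t) (u : E) :
    inner ℝ x u ≤ supportFn K u ^ (1 - t) * supportFn L u ^ t := by
  by_cases hu : u = 0
  · subst hu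
    rw [inner_zero_right]
    exact mul_nonneg (Real.rpow_nonneg (supportFn_nonneg hK 0) _)
      (Real.rpow_nonneg (supportFn_nonneg hL 0) _)
  have hn : 0 < ‖u‖ := norm_pos_iff.mpr hu
  set v : E := ‖u‖⁻¹ • u with hv
  have hv1 : ‖v‖ = 1 := by
    rw [hv, norm_smul, norm_inv, norm_norm]
    exact inv_mul_cancel₀ hn.ne'
  have huv : u = ‖u‖ • v := by
    rw [hv, smul_smul, mul_inv_cancel₀ hn.ne', one_smul]
  have h1 := hx v hv1
  simp only at h1
  have hKv := supportFn_nonneg hK v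
  have hLv := supportFn_nonneg hL v
  rw [huv, inner_smul_right, supportFn_smul_vec _ hn.le, supportFn_smul_vec _ hn.le,
    Real.mul_rpow hn.le hKv, Real.mul_rpow hn.le hLv]
  have hsplit : ‖u‖ ^ (1 - t) * ‖u‖ ^ t = ‖u‖ := by
    rw [← Real.rpow_add hn]; simp
  calc ‖u‖ * inner ℝ x v ≤ ‖u‖ * (supportFn K v ^ (1 - t) * supportFn L v ^ t) :=
        mul_le_mul_of_nonneg_left h1 hn.le
    _ = (‖u‖ ^ (1 - t) * ‖u‖ ^ t) * (supportFn K v ^ (1 - t) * supportFn L v ^ t) := by
        rw [hsplit]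
    _ = ‖u‖ ^ (1 - t) * supportFn K v ^ (1 - t) * (‖u‖ ^ t * supportFn L v ^ t) := by ring

end Basic

end Vale.Agent.Lib.P227
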