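import Vale.Agent.Lib.P227.Basic

namespace Vale.Agent.Lib.P227

open MeasureTheory Pointwise

/-- Finite Hoelder inequality in geometric-mean form. -/
lemma holder_sum {κ : Type*} (s : Finset κ) (p q : κ → ℝ) (hp : ∀ j, 0 ≤ p j)
    (hq : ∀ j, 0 ≤ q j) {t : ℝ} (ht0 : 0 ≤ t) (ht1 : t ≤ 1) :
    ∑ j ∈ s, p j ^ (1 - t) * q j ^ t ≤ (∑ j ∈ s, p j) ^ (1 - t) * (∑ j ∈ s, q j) ^ t := by
  classical
  induction s using Finset.induction_on with
  | empty =>
    simp only [Finset.sum_empty]
    exact mul_nonneg (Real.rpow_nonneg le_rfl _) (Real.rpow_nonneg le_rfl _)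
  | insert b s hb ih =>
    rw [Finset.sum_insert hb, Finset.sum_insert hb, Finset.sum_insert hb]
    have h2 := holder_two (hp b) (hq b) (Finset.sum_nonneg (fun j _ => hp j))
      (Finset.sum_nonneg (fun j _ => hq j)) ht0 ht1 (r := ∑ j ∈ s, p j) (s := ∑ j ∈ s, q j)
    linarith

section Diag

variable {n : ℕ}

/-- Coordinatewise scaling of `ℝ^n` by the vector `d`, as a linear map. -/
def scaleMap (d : Fin n → ℝ) : EuclideanSpace ℝ (Fin n) →ₗ[ℝ] EuclideanSpace ℝ (Fin n) where
  toFun x := WithLp.toLp 2 (fun i => d i * x i)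
  map_add' x y := by
    ext i
    simp [mul_add]
  map_smul' r x := by
    ext i
    simp [mul_left_comm]

lemma scaleMap_apply (d : Fin n → ℝ) (x : EuclideanSpace ℝ (Fin n)) (i : Fin n) :
    scaleMap d x i = d i * x i := rfl

lemma inner_eq_sum (x u : EuclideanSpace ℝ (Fin n)) : inner ℝ x u = ∑ i, x i * u i := by
  simp [PiLp.inner_apply, mul_comm]

lemma inner_scaleMap_left (d : Fin n → ℝ) (x u : EuclideanSpace ℝ (Fin n)) :
    inner ℝ (scaleMap d x) u = inner ℝ x (scaleMap d u) := by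
  rw [inner_eq_sum, inner_eq_sum]
  apply Finset.sum_congr rfl
  intro i _
  rw [scaleMap_apply, scaleMap_apply]
  ring

lemma det_scaleMap (d : Fin n → ℝ) : LinearMap.det (scaleMap d) = ∏ i, d i := by
  classical
  rw [← LinearMap.det_toMatrix (EuclideanSpace.basisFun (Fin n) ℝ).toBasis]
  have : LinearMap.toMatrix (EuclideanSpace.basisFun (Fin n) ℝ).toBasis
      (EuclideanSpace.basisFun (Fin n) ℝ).toBasis (scaleMap d) = Matrix.diagonal d := by
    ext i j
    rw [LinearMap.toMatrix_apply]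
    simp [scaleMap, Matrix.diagonal_apply]
  rw [this, Matrix.det_diagonal]

lemma volume_scaleMap_image (d : Fin n → ℝ) (hd : ∀ i, 0 ≤ d i)
    (K : Set (EuclideanSpace ℝ (Fin n))) :
    volume (scaleMap d '' K) = ENNReal.ofReal (∏ i, d i) * volume K := by
  rw [Measure.addHaar_image_linearMap, det_scaleMap,
    abs_of_nonneg (Finset.prod_nonneg (fun i _ => hd i))]

lemma supportFn_scaleMap_image (d : Fin n → ℝ) (K : Set (EuclideanSpace ℝ (Fin n)))
    (u : EuclideanSpace ℝ (Fin n)) :
    supportFn (scaleMap d '' K) u = supportFn K (scaleMap d u) := by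
  unfold supportFn
  rw [Set.image_image]
  congr 1
  apply Set.image_congr
  intro x _
  exact inner_scaleMap_left d x u

/-- Key pointwise inequality: log-convexity of the support function along block scalings. -/
lemma inner_scale_rpow_le {m : ℕ} (c : Fin n → Fin m) {K : Set (EuclideanSpace ℝ (Fin n))}
    (hK : IsSymmConvexBody K)
    (hsym : ∀ ε : Fin m → ℝ, (∀ j, ε j = 1 ∨ ε j = -1) → ∀ x ∈ K,
      (WithLp.toLp 2 (fun i => ε (c i) * x i) : EuclideanSpace ℝ (Fin n)) ∈ K)
    (a : Fin m → ℝ) (ha : ∀ j, 0 < a j) {t : ℝ} (ht0 : 0 ≤ t) (ht1 : t ≤ 1)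
    {y : EuclideanSpace ℝ (Fin n)} (hy : y ∈ K) (u : EuclideanSpace ℝ (Fin n)) :
    inner ℝ y (scaleMap (fun i => a (c i) ^ t) u)
      ≤ supportFn K u ^ (1 - t) * supportFn K (scaleMap (fun i => a (c i)) u) ^ t := by
  classical
  set B : Fin m → ℝ := fun j => ∑ i ∈ Finset.univ.filter (fun i => c i = j), y i * u i with hB
  set ε : Fin m → ℝ := fun j => if 0 ≤ B j then 1 else -1 with hε
  have hε1 : ∀ j, ε j = 1 ∨ ε j = -1 := by
    intro j
    simp only [hε]
    split_ifs <;> simp
  have hεB : ∀ j, ε j * B j = |B j| := by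
    intro j
    simp only [hε]
    split_ifs with h
    · rw [one_mul, abs_of_nonneg h]
    · rw [abs_of_neg (not_le.mp h)]; ring
  set y' : EuclideanSpace ℝ (Fin n) := WithLp.toLp 2 (fun i => ε (c i) * y i) with hy'
  have hy'K : y' ∈ K := hsym ε hε1 y hy
  have hy'i : ∀ i, y' i = ε (c i) * y i := fun i => rfl
  -- the three inner products as block sums
  have e0 : inner ℝ y (scaleMap (fun i => a (c i) ^ t) u) = ∑ j, a j ^ t * B j := by
    rw [inner_eq_sum, ← Finset.sum_fiberwise Finset.univ c]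
    apply Finset.sum_congr rfl
    intro j _
    rw [hB, Finset.mul_sum]
    apply Finset.sum_congr rfl
    intro i hi
    rw [Finset.mem_filter] at hi
    rw [scaleMap_apply, hi.2]
    ring
  have e1 : inner ℝ y' u = ∑ j, |B j| := by
    rw [inner_eq_sum, ← Finset.sum_fiberwise Finset.univ c]
    apply Finset.sum_congr rfl
    intro j _
    rw [← hεB j, hB, Finset.mul_sum]
    apply Finset.sum_congr rfl
    intro i hi
    rw [Finset.mem_filter] at hi
    rw [hy'i, hi.2]
    ring
  have e2 : inner ℝ y' (scaleMap (fun i => a (c i)) u) = ∑ j, a j * |B j| := by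
    rw [inner_eq_sum, ← Finset.sum_fiberwise Finset.univ c]
    apply Finset.sum_congr rfl
    intro j _
    rw [← hεB j, hB, Finset.mul_sum, Finset.mul_sum]
    apply Finset.sum_congr rfl
    intro i hi
    rw [Finset.mem_filter] at hi
    rw [hy'i, scaleMap_apply, hi.2]
    ring
  have b1 : ∑ j, |B j| ≤ supportFn K u := by
    rw [← e1]; exact inner_le_supportFn hK.1 hy'K u
  have b2 : ∑ j, a j * |B j| ≤ supportFn K (scaleMap (fun i => a (c i)) u) := by
    rw [← e2]; exact inner_le_supportFn hK.1 hy'K _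
  have n1 : 0 ≤ ∑ j, |B j| := Finset.sum_nonneg (fun j _ => abs_nonneg _)
  have n2 : 0 ≤ ∑ j, a j * |B j| :=
    Finset.sum_nonneg (fun j _ => mul_nonneg (ha j).le (abs_nonneg _))
  have hol := holder_sum Finset.univ (fun j => |B j|) (fun j => a j * |B j|)
    (fun j => abs_nonneg _) (fun j => mul_nonneg (ha j).le (abs_nonneg _)) ht0 ht1
  have h1t : 0 ≤ 1 - t := by linarith
  have step : ∑ j, a j ^ t * B j ≤ ∑ j, |B j| ^ (1 - t) * (a j * |B j|) ^ t := by
    apply Finset.sum_le_sum
    intro j _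
    have hsplit : |B j| ^ (1 - t) * |B j| ^ t = |B j| := by
      rw [← Real.rpow_add_of_nonneg (abs_nonneg _) h1t ht0]; simp
    have : |B j| ^ (1 - t) * (a j * |B j|) ^ t = a j ^ t * |B j| := by
      rw [Real.mul_rpow (ha j).le (abs_nonneg _)]
      calc |B j| ^ (1 - t) * (a j ^ t * |B j| ^ t)
          = a j ^ t * (|B j| ^ (1 - t) * |B j| ^ t) := by ring
        _ = a j ^ t * |B j| := by rw [hsplit]
    rw [this]
    exact mul_le_mul_of_nonneg_left (le_abs_self _) (Real.rpow_nonneg (ha j).le _)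
  rw [e0]
  calc ∑ j, a j ^ t * B j ≤ ∑ j, |B j| ^ (1 - t) * (a j * |B j|) ^ t := step
    _ ≤ (∑ j, |B j|) ^ (1 - t) * (∑ j, a j * |B j|) ^ t := hol
    _ ≤ supportFn K u ^ (1 - t) * supportFn K (scaleMap (fun i => a (c i)) u) ^ t :=
        mul_le_mul (Real.rpow_le_rpow n1 b1 h1t) (Real.rpow_le_rpow n2 b2 ht0)
          (Real.rpow_nonneg n2 _) (Real.rpow_nonneg (n1.trans b1) _)

/-- Logarithmic Brunn-Minkowski for `K` and `T K`, where `K` is invariant under the sign
changes of each block of a partition `c` of the coordinates, and `T` is a positive diagonal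
map which is constant on the blocks. -/
theorem logBM_block {m : ℕ} (c : Fin n → Fin m) {K : Set (EuclideanSpace ℝ (Fin n))}
    (hK : IsSymmConvexBody K)
    (hsym : ∀ ε : Fin m → ℝ, (∀ j, ε j = 1 ∨ ε j = -1) → ∀ x ∈ K,
      (WithLp.toLp 2 (fun i => ε (c i) * x i) : EuclideanSpace ℝ (Fin n)) ∈ K)
    (a : Fin m → ℝ) (ha : ∀ j, 0 < a j) {t : ℝ} (ht0 : 0 ≤ t) (ht1 : t ≤ 1) :
    volume K ^ (1 - t) * volume (scaleMap (fun i => a (c i)) '' K) ^ t
      ≤ volume (logSum K (scaleMap (fun i => a (c i)) '' K) t) := by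
  have h1t : 0 ≤ 1 - t := by linarith
  have hsub : scaleMap (fun i => a (c i) ^ t) '' K
      ⊆ logSum K (scaleMap (fun i => a (c i)) '' K) t := by
    rintro _ ⟨y, hy, rfl⟩ u _
    simp only
    rw [inner_scaleMap_left, supportFn_scaleMap_image]
    exact inner_scale_rpow_le c hK hsym a ha ht0 ht1 hy u
  have hpos : ∀ i, 0 ≤ a (c i) := fun i => (ha _).le
  have hprod : (∏ i, a (c i)) ^ t = ∏ i, a (c i) ^ t :=
    (Real.finsetProd_rpow Finset.univ (fun i => a (c i)) (fun i _ => hpos i) t).symm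
  calc volume K ^ (1 - t) * volume (scaleMap (fun i => a (c i)) '' K) ^ t
      = ENNReal.ofReal (∏ i, a (c i) ^ t) * volume K := by
        rw [volume_scaleMap_image _ hpos, ENNReal.mul_rpow_of_nonneg _ _ ht0,
          ENNReal.ofReal_rpow_of_nonneg (Finset.prod_nonneg (fun i _ => hpos i)) ht0, hprod]
        have : volume K ^ (1 - t) * volume K ^ t = volume K := by
          rw [← ENNReal.rpow_add_of_nonneg _ _ h1t ht0]; simp
        calc volume K ^ (1 - t) * (ENNReal.ofReal (∏ i, a (c i) ^ t) * volume K ^ t)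
            = ENNReal.ofReal (∏ i, a (c i) ^ t) * (volume K ^ (1 - t) * volume K ^ t) := by ring
          _ = ENNReal.ofReal (∏ i, a (c i) ^ t) * volume K := by rw [this]
    _ = volume (scaleMap (fun i => a (c i) ^ t) '' K) :=
        (volume_scaleMap_image _ (fun i => Real.rpow_nonneg (hpos i) _) K).symm
    _ ≤ volume (logSum K (scaleMap (fun i => a (c i)) '' K) t) := measure_mono hsub

end Diag

end Vale.Agent.Lib.P227
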