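import Mathlib

namespace Vale.Agent.Lib.P227

section Defs

variable {E : Type*} [NormedAddCommGroup E] [InnerProductSpace ℝ E]

/-- Support function `h_K(u) = sup_{x ∈ K} ⟪x, u⟫` of a set `K`. -/
noncomputable def supportFn (K : Set E) (u : E) : ℝ :=
  sSup ((fun x : E => inner ℝ x u) '' K)

/-- An origin-symmetric convex body: compact, convex, nonempty interior, `K = -K`. -/
def IsSymmConvexBody (K : Set E) : Prop :=
  IsCompact K ∧ Convex ℝ K ∧ (interior K).Nonempty ∧ ∀ x ∈ K, -x ∈ K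

/-- The Wulff body `W[f] = ⋂_{‖u‖ = 1} {x : ⟪x, u⟫ ≤ f u}`. -/
def wulff (f : E → ℝ) : Set E :=
  {x | ∀ u : E, ‖u‖ = 1 → inner ℝ x u ≤ f u}

/-- The logarithmic combination `(1 - t) K +₀ t L = W[h_K^{1-t} h_L^t]`. -/
noncomputable def logSum (K L : Set E) (t : ℝ) : Set E :=
  wulff (fun u => supportFn K u ^ (1 - t) * supportFn L u ^ t)

/-- The logarithmic Brunn-Minkowski inequality `|(1 - t) K +₀ t L| ≥ |K|^(1-t) |L|^t`
for the pair `K`, `L` at the parameter `t` (volumes valued in `[0, ∞]`). -/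
def LogBMIneq [MeasureTheory.MeasureSpace E] (K L : Set E) (t : ℝ) : Prop :=
  MeasureTheory.volume K ^ (1 - t) * MeasureTheory.volume L ^ t
    ≤ MeasureTheory.volume (logSum K L t)

end Defs

section ProdDef

variable {E₁ E₂ : Type*}

/-- The product body `K₁ × K₂` inside the Euclidean (orthogonal) product of `E₁` and `E₂`,
which is the type `WithLp 2 (E₁ × E₂)`. -/
def prodBody (K₁ : Set E₁) (K₂ : Set E₂) : Set (WithLp 2 (E₁ × E₂)) :=
  {z | (WithLp.ofLp z).1 ∈ K₁ ∧ (WithLp.ofLp z).2 ∈ K₂}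

end ProdDef

end Vale.Agent.Lib.P227
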