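import Vale.Agent.Lib.P227.Basic

namespace Vale.Agent.Lib.P227

open MeasureTheory Pointwise

section Prod

variable {E₁ E₂ : Type*} [NormedAddCommGroup E₁] [InnerProductSpace ℝ E₁]
  [NormedAddCommGroup E₂] [InnerProductSpace ℝ E₂]

lemma isCompact_prodBody {K₁ : Set E₁} {K₂ : Set E₂} (h₁ : IsCompact K₁) (h₂ : IsCompact K₂) :
    IsCompact (prodBody K₁ K₂) := by
  have : prodBody K₁ K₂ = (WithLp.toLp 2) '' (K₁ ×ˢ K₂) := by
    ext z
    simp only [prodBody, Set.mem_image, Set.mem_prod]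
    constructor
    · intro h
      exact ⟨WithLp.ofLp z, h, rfl⟩
    · rintro ⟨w, hw, rfl⟩
      exact hw
  rw [this]
  exact (h₁.prod h₂).image (WithLp.prod_continuous_toLp 2 E₁ E₂)

lemma supportFn_prod_ge {K₁ : Set E₁} {K₂ : Set E₂} (h₁ : IsCompact K₁) (h₂ : IsCompact K₂)
    (n₁ : K₁.Nonempty) (n₂ : K₂.Nonempty) (u : WithLp 2 (E₁ × E₂)) :
    supportFn K₁ (WithLp.ofLp u).1 + supportFn K₂ (WithLp.ofLp u).2
      ≤ supportFn (prodBody K₁ K₂) u := by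
  have hc := isCompact_prodBody h₁ h₂
  have key : ∀ x₁ ∈ K₁, ∀ x₂ ∈ K₂,
      inner ℝ x₁ (WithLp.ofLp u).1 + inner ℝ x₂ (WithLp.ofLp u).2
        ≤ supportFn (prodBody K₁ K₂) u := by
    intro x₁ hx₁ x₂ hx₂
    have hz : (WithLp.toLp 2 (x₁, x₂) : WithLp 2 (E₁ × E₂)) ∈ prodBody K₁ K₂ := ⟨hx₁, hx₂⟩
    have := inner_le_supportFn hc hz u
    rwa [WithLp.prod_inner_apply] at this
  have s1 : supportFn K₁ (WithLp.ofLp u).1
      ≤ supportFn (prodBody K₁ K₂) u - supportFn K₂ (WithLp.ofLp u).2 := by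
    apply csSup_le (n₁.image _)
    rintro _ ⟨x₁, hx₁, rfl⟩
    have s2 : supportFn K₂ (WithLp.ofLp u).2
        ≤ supportFn (prodBody K₁ K₂) u - inner ℝ x₁ (WithLp.ofLp u).1 := by
      apply csSup_le (n₂.image _)
      rintro _ ⟨x₂, hx₂, rfl⟩
      have := key x₁ hx₁ x₂ hx₂
      linarith
    linarith
  linarith

lemma IsSymmConvexBody.prodBody {K₁ : Set E₁} {K₂ : Set E₂}
    (h₁ : IsSymmConvexBody K₁) (h₂ : IsSymmConvexBody K₂) :
    IsSymmConvexBody (prodBody K₁ K₂) := by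
  refine ⟨isCompact_prodBody h₁.1 h₂.1, ?_, ?_, ?_⟩
  · intro z hz w hw a b ha hb hab
    exact ⟨h₁.2.1 hz.1 hw.1 ha hb hab, h₂.2.1 hz.2 hw.2 ha hb hab⟩
  · obtain ⟨x₁, hx₁⟩ := h₁.2.2.1
    obtain ⟨x₂, hx₂⟩ := h₂.2.2.1
    refine ⟨WithLp.toLp 2 (x₁, x₂), ?_⟩
    rw [mem_interior]
    refine ⟨(WithLp.ofLp) ⁻¹' (interior K₁ ×ˢ interior K₂), ?_, ?_, ?_⟩
    · intro z hz
      exact ⟨interior_subset hz.1, interior_subset hz.2⟩
    · exact (isOpen_interior.prod isOpen_interior).preimage (WithLp.prod_continuous_ofLp 2 E₁ E₂)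
    · exact ⟨hx₁, hx₂⟩
  · intro z hz
    exact ⟨by simpa using h₁.2.2.2 _ hz.1, by simpa using h₂.2.2.2 _ hz.2⟩

/-- The product of the logarithmic combinations is contained in the logarithmic
combination of the products. -/
lemma prodBody_logSum_subset {K₁ L₁ : Set E₁} {K₂ L₂ : Set E₂}
    (hK₁ : IsSymmConvexBody K₁) (hL₁ : IsSymmConvexBody L₁)
    (hK₂ : IsSymmConvexBody K₂) (hL₂ : IsSymmConvexBody L₂)
    {t : ℝ} (ht0 : 0 ≤ t) (ht1 : t ≤ 1) :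
    prodBody (logSum K₁ L₁ t) (logSum K₂ L₂ t)
      ⊆ logSum (prodBody K₁ K₂) (prodBody L₁ L₂) t := by
  intro z hz u _
  simp only
  rw [WithLp.prod_inner_apply]
  have a1 := inner_le_of_mem_logSum hK₁ hL₁ hz.1 (WithLp.ofLp u).1
  have a2 := inner_le_of_mem_logSum hK₂ hL₂ hz.2 (WithLp.ofLp u).2
  have hol := holder_two (supportFn_nonneg hK₁ (WithLp.ofLp u).1)
    (supportFn_nonneg hL₁ (WithLp.ofLp u).1) (supportFn_nonneg hK₂ (WithLp.ofLp u).2)
    (supportFn_nonneg hL₂ (WithLp.ofLp u).2) ht0 ht1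
  have gK := supportFn_prod_ge hK₁.1 hK₂.1 hK₁.nonempty hK₂.nonempty u
  have gL := supportFn_prod_ge hL₁.1 hL₂.1 hL₁.nonempty hL₂.nonempty u
  have nK : 0 ≤ supportFn K₁ (WithLp.ofLp u).1 + supportFn K₂ (WithLp.ofLp u).2 :=
    add_nonneg (supportFn_nonneg hK₁ _) (supportFn_nonneg hK₂ _)
  have nL : 0 ≤ supportFn L₁ (WithLp.ofLp u).1 + supportFn L₂ (WithLp.ofLp u).2 :=
    add_nonneg (supportFn_nonneg hL₁ _) (supportFn_nonneg hL₂ _)
  have m1 : (supportFn K₁ (WithLp.ofLp u).1 + supportFn K₂ (WithLp.ofLp u).2) ^ (1 - t)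
      ≤ supportFn (prodBody K₁ K₂) u ^ (1 - t) :=
    Real.rpow_le_rpow nK gK (by linarith)
  have m2 : (supportFn L₁ (WithLp.ofLp u).1 + supportFn L₂ (WithLp.ofLp u).2) ^ t
      ≤ supportFn (prodBody L₁ L₂) u ^ t :=
    Real.rpow_le_rpow nL gL ht0
  have m3 := mul_le_mul m1 m2 (Real.rpow_nonneg nL _)
    (Real.rpow_nonneg (nK.trans gK) _)
  linarith

end Prod

section Volume

variable {E₁ E₂ : Type*} [NormedAddCommGroup E₁] [InnerProductSpace ℝ E₁]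
  [MeasurableSpace E₁] [BorelSpace E₁] [FiniteDimensional ℝ E₁]
  [NormedAddCommGroup E₂] [InnerProductSpace ℝ E₂]
  [MeasurableSpace E₂] [BorelSpace E₂] [FiniteDimensional ℝ E₂]

lemma volume_prodBody (A : Set E₁) (B : Set E₂) :
    volume (prodBody A B) = volume A * volume B := by
  have h := WithLp.volume_preserving_symm_measurableEquiv_toLp_prod E₁ E₂
  have e : prodBody A B = (MeasurableEquiv.toLp 2 (E₁ × E₂)).symm ⁻¹' (A ×ˢ B) := by
    ext z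
    rfl
  rw [e, h.measure_preimage_equiv, Measure.volume_eq_prod, Measure.prod_prod]

/-- Closure of the logarithmic Brunn-Minkowski inequality under Cartesian products. -/
theorem logBM_prod {K₁ L₁ : Set E₁} {K₂ L₂ : Set E₂}
    (hK₁ : IsSymmConvexBody K₁) (hL₁ : IsSymmConvexBody L₁)
    (hK₂ : IsSymmConvexBody K₂) (hL₂ : IsSymmConvexBody L₂)
    {t : ℝ} (ht0 : 0 ≤ t) (ht1 : t ≤ 1)
    (h₁ : volume K₁ ^ (1 - t) * volume L₁ ^ t ≤ volume (logSum K₁ L₁ t))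
    (h₂ : volume K₂ ^ (1 - t) * volume L₂ ^ t ≤ volume (logSum K₂ L₂ t)) :
    volume (prodBody K₁ K₂) ^ (1 - t) * volume (prodBody L₁ L₂) ^ t
      ≤ volume (logSum (prodBody K₁ K₂) (prodBody L₁ L₂) t) := by
  have hsub := prodBody_logSum_subset hK₁ hL₁ hK₂ hL₂ ht0 ht1
  have h1t : 0 ≤ 1 - t := by linarith
  calc volume (prodBody K₁ K₂) ^ (1 - t) * volume (prodBody L₁ L₂) ^ t
      = (volume K₁ ^ (1 - t) * volume L₁ ^ t) * (volume K₂ ^ (1 - t) * volume L₂ ^ t) := by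
        rw [volume_prodBody, volume_prodBody, ENNReal.mul_rpow_of_nonneg _ _ h1t,
          ENNReal.mul_rpow_of_nonneg _ _ ht0]
        ring
    _ ≤ volume (logSum K₁ L₁ t) * volume (logSum K₂ L₂ t) := mul_le_mul' h₁ h₂
    _ = volume (prodBody (logSum K₁ L₁ t) (logSum K₂ L₂ t)) := (volume_prodBody _ _).symm
    _ ≤ volume (logSum (prodBody K₁ K₂) (prodBody L₁ L₂) t) := measure_mono hsub

end Volume

end Vale.Agent.Lib.P227
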