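import Vale.Agent.Lib.P227.Block

namespace Vale.Agent.Lib.P227

open MeasureTheory Pointwise

section Proj

variable {n : ℕ}

/-- Key pointwise inequality: log-convexity of the support function along block scalings,
for a body that contains its coordinate-block projections. -/
lemma inner_scale_rpow_le_proj {m : ℕ} (c : Fin n → Fin m)
    {K : Set (EuclideanSpace ℝ (Fin n))} (hK : IsSymmConvexBody K)
    (hproj : ∀ S : Finset (Fin m), ∀ x ∈ K,
      (WithLp.toLp 2 (fun i => if c i ∈ S then x i else 0) : EuclideanSpace ℝ (Fin n)) ∈ K)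
    (a : Fin m → ℝ) (ha : ∀ j, 0 < a j) {t : ℝ} (ht0 : 0 ≤ t) (ht1 : t ≤ 1)
    {y : EuclideanSpace ℝ (Fin n)} (hy : y ∈ K) (u : EuclideanSpace ℝ (Fin n)) :
    inner ℝ y (scaleMap (fun i => a (c i) ^ t) u)
      ≤ supportFn K u ^ (1 - t) * supportFn K (scaleMap (fun i => a (c i)) u) ^ t := by
  classical
  set B : Fin m → ℝ := fun j => ∑ i ∈ Finset.univ.filter (fun i => c i = j), y i * u i with hB
  set S : Finset (Fin m) := Finset.univ.filter (fun j => 0 ≤ B j) with hS
  set P : Fin m → ℝ := fun j => if 0 ≤ B j then B j else 0 with hP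
  have hP0 : ∀ j, 0 ≤ P j := by
    intro j
    simp only [hP]
    split_ifs with h
    · exact h
    · exact le_rfl
  have hBP : ∀ j, B j ≤ P j := by
    intro j
    simp only [hP]
    split_ifs with h
    · exact le_rfl
    · exact (not_le.mp h).le
  have hmemS : ∀ j, j ∈ S ↔ 0 ≤ B j := by
    intro j
    simp [hS]
  set y' : EuclideanSpace ℝ (Fin n) :=
    WithLp.toLp 2 (fun i => if c i ∈ S then y i else 0) with hy'
  have hy'K : y' ∈ K := hproj S y hy
  have hy'i : ∀ i, y' i = if c i ∈ S then y i else 0 := fun i => rfl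
  have e0 : inner ℝ y (scaleMap (fun i => a (c i) ^ t) u) = ∑ j, a j ^ t * B j := by
    rw [inner_eq_sum, ← Finset.sum_fiberwise Finset.univ c]
    apply Finset.sum_congr rfl
    intro j _
    rw [hB, Finset.mul_sum]
    apply Finset.sum_congr rfl
    intro i hi
    rw [Finset.mem_filter] at hi
    rw [scaleMap_apply, hi.2]
    ring
  have hPpos : ∀ j, 0 ≤ B j → P j = B j := fun j h => if_pos h
  have hPneg : ∀ j, ¬ 0 ≤ B j → P j = 0 := fun j h => if_neg h
  have e1 : inner ℝ y' u = ∑ j, P j := by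
    rw [inner_eq_sum, ← Finset.sum_fiberwise Finset.univ c]
    apply Finset.sum_congr rfl
    intro j _
    by_cases hj : 0 ≤ B j
    · have hjS : j ∈ S := (hmemS j).mpr hj
      rw [hPpos j hj]
      show _ = ∑ i ∈ Finset.univ.filter (fun i => c i = j), y i * u i
      apply Finset.sum_congr rfl
      intro i hi
      rw [Finset.mem_filter] at hi
      rw [hy'i, hi.2, if_pos hjS]
    · have hjS : j ∉ S := fun h => hj ((hmemS j).mp h)
      rw [hPneg j hj]
      apply Finset.sum_eq_zero
      intro i hi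
      rw [Finset.mem_filter] at hi
      rw [hy'i, hi.2, if_neg hjS, zero_mul]
  have e2 : inner ℝ y' (scaleMap (fun i => a (c i)) u) = ∑ j, a j * P j := by
    rw [inner_eq_sum, ← Finset.sum_fiberwise Finset.univ c]
    apply Finset.sum_congr rfl
    intro j _
    by_cases hj : 0 ≤ B j
    · have hjS : j ∈ S := (hmemS j).mpr hj
      rw [hPpos j hj]
      show _ = a j * ∑ i ∈ Finset.univ.filter (fun i => c i = j), y i * u i
      rw [Finset.mul_sum]
      apply Finset.sum_congr rfl
      intro i hi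
      rw [Finset.mem_filter] at hi
      rw [hy'i, scaleMap_apply, hi.2, if_pos hjS]
      ring
    · have hjS : j ∉ S := fun h => hj ((hmemS j).mp h)
      rw [hPneg j hj, mul_zero]
      apply Finset.sum_eq_zero
      intro i hi
      rw [Finset.mem_filter] at hi
      rw [hy'i, hi.2, if_neg hjS, zero_mul]
  have b1 : ∑ j, P j ≤ supportFn K u := by
    rw [← e1]; exact inner_le_supportFn hK.1 hy'K u
  have b2 : ∑ j, a j * P j ≤ supportFn K (scaleMap (fun i => a (c i)) u) := by
    rw [← e2]; exact inner_le_supportFn hK.1 hy'K _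
  have n1 : 0 ≤ ∑ j, P j := Finset.sum_nonneg (fun j _ => hP0 j)
  have n2 : 0 ≤ ∑ j, a j * P j :=
    Finset.sum_nonneg (fun j _ => mul_nonneg (ha j).le (hP0 j))
  have hol := holder_sum Finset.univ (fun j => P j) (fun j => a j * P j)
    (fun j => hP0 j) (fun j => mul_nonneg (ha j).le (hP0 j)) ht0 ht1
  have h1t : 0 ≤ 1 - t := by linarith
  have step : ∑ j, a j ^ t * B j ≤ ∑ j, P j ^ (1 - t) * (a j * P j) ^ t := by
    apply Finset.sum_le_sum
    intro j _
    have hsplit : P j ^ (1 - t) * P j ^ t = P j := by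
      rw [← Real.rpow_add_of_nonneg (hP0 j) h1t ht0]; simp
    have : P j ^ (1 - t) * (a j * P j) ^ t = a j ^ t * P j := by
      rw [Real.mul_rpow (ha j).le (hP0 j)]
      calc P j ^ (1 - t) * (a j ^ t * P j ^ t)
          = a j ^ t * (P j ^ (1 - t) * P j ^ t) := by ring
        _ = a j ^ t * P j := by rw [hsplit]
    rw [this]
    exact mul_le_mul_of_nonneg_left (hBP j) (Real.rpow_nonneg (ha j).le _)
  rw [e0]
  calc ∑ j, a j ^ t * B j ≤ ∑ j, P j ^ (1 - t) * (a j * P j) ^ t := step
    _ ≤ (∑ j, P j) ^ (1 - t) * (∑ j, a j * P j) ^ t := hol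
    _ ≤ supportFn K u ^ (1 - t) * supportFn K (scaleMap (fun i => a (c i)) u) ^ t :=
        mul_le_mul (Real.rpow_le_rpow n1 b1 h1t) (Real.rpow_le_rpow n2 b2 ht0)
          (Real.rpow_nonneg n2 _) (Real.rpow_nonneg (n1.trans b1) _)

/-- Logarithmic Brunn-Minkowski for `K` and `T K`, where `K` contains all its coordinate-block
projections (for a partition `c` of the coordinates into blocks), and `T` is a positive
diagonal map which is constant on the blocks. -/
theorem logBM_proj {m : ℕ} (c : Fin n → Fin m) {K : Set (EuclideanSpace ℝ (Fin n))}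
    (hK : IsSymmConvexBody K)
    (hproj : ∀ S : Finset (Fin m), ∀ x ∈ K,
      (WithLp.toLp 2 (fun i => if c i ∈ S then x i else 0) : EuclideanSpace ℝ (Fin n)) ∈ K)
    (a : Fin m → ℝ) (ha : ∀ j, 0 < a j) {t : ℝ} (ht0 : 0 ≤ t) (ht1 : t ≤ 1) :
    volume K ^ (1 - t) * volume (scaleMap (fun i => a (c i)) '' K) ^ t
      ≤ volume (logSum K (scaleMap (fun i => a (c i)) '' K) t) := by
  have h1t : 0 ≤ 1 - t := by linarith
  have hsub : scaleMap (fun i => a (c i) ^ t) '' K
      ⊆ logSum K (scaleMap (fun i => a (c i)) '' K) t := by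
    rintro _ ⟨y, hy, rfl⟩ u _
    simp only
    rw [inner_scaleMap_left, supportFn_scaleMap_image]
    exact inner_scale_rpow_le_proj c hK hproj a ha ht0 ht1 hy u
  have hpos : ∀ i, 0 ≤ a (c i) := fun i => (ha _).le
  have hprod : (∏ i, a (c i)) ^ t = ∏ i, a (c i) ^ t :=
    (Real.finsetProd_rpow Finset.univ (fun i => a (c i)) (fun i _ => hpos i) t).symm
  calc volume K ^ (1 - t) * volume (scaleMap (fun i => a (c i)) '' K) ^ t
      = ENNReal.ofReal (∏ i, a (c i) ^ t) * volume K := by
        rw [volume_scaleMap_image _ hpos, ENNReal.mul_rpow_of_nonneg _ _ ht0,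
          ENNReal.ofReal_rpow_of_nonneg (Finset.prod_nonneg (fun i _ => hpos i)) ht0, hprod]
        have : volume K ^ (1 - t) * volume K ^ t = volume K := by
          rw [← ENNReal.rpow_add_of_nonneg _ _ h1t ht0]; simp
        calc volume K ^ (1 - t) * (ENNReal.ofReal (∏ i, a (c i) ^ t) * volume K ^ t)
            = ENNReal.ofReal (∏ i, a (c i) ^ t) * (volume K ^ (1 - t) * volume K ^ t) := by ring
          _ = ENNReal.ofReal (∏ i, a (c i) ^ t) * volume K := by rw [this]
    _ = volume (scaleMap (fun i => a (c i) ^ t) '' K) :=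
        (volume_scaleMap_image _ (fun i => Real.rpow_nonneg (hpos i) _) K).symm
    _ ≤ volume (logSum K (scaleMap (fun i => a (c i)) '' K) t) := measure_mono hsub

end Proj

end Vale.Agent.Lib.P227
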